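import Vale.Agent.P088.R2.H551.V.Spec
import Vale.Agent.P088.H27.JTorS
import Vale.Agent.P088.H102.Neu
import Vale.Agent.P088.H501.A12
import Vale.Agent.P088.H776.A3
import Vale.Agent.P088.H159.USm

/-!
# P088, two pairs: row V-EX, existence of smooth solutions
-/

open MeasureTheory Set Filter
open scoped ContDiff Matrix Topology

noncomputable section

namespace Vale.Agent.P088.PJ.H311

open Vale.Agent.P088.LR Vale.Agent.P088.LR.U Vale.Agent.P088.LR.H158 Vale.Agent.P088.LR.H27
open Vale.Agent.P088.H159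
open Vale.Agent.P088.HY (VV Bs Bn Un DB)

variable {n N : ℕ}

/-- from the cube to the centred coordinates -/
def yx (x : V n) : V n := fun j => 4 * x j - 2

/-- from the centred coordinates to the cube -/
def xy (y : V n) : V n := fun j => y j / 4 + 1 / 2

lemma yx_xy (y : V n) : yx (xy y) = y := by
  funext j
  simp only [yx, xy]
  ring

/-- the linear part -/
def T4 (n : ℕ) (c : ℝ) : V n →L[ℝ] V n := c • ContinuousLinearMap.id ℝ (V n)

lemma T4_norm (c : ℝ) (hc : 0 ≤ c) : ‖T4 n c‖ ≤ c := by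
  refine ContinuousLinearMap.opNorm_le_bound _ hc fun x => ?_
  simp [T4, norm_smul, abs_of_nonneg hc]

lemma yx_eq (x : V n) : yx x = T4 n 4 x + fun _ => -2 := by
  funext j
  simp [yx, T4]
  ring

lemma xy_eq (x : V n) : xy x = T4 n (1 / 4) x + fun _ => 1 / 2 := by
  funext j
  simp [xy, T4]
  ring

lemma yx_sm : ContDiff ℝ ∞ (yx : V n → V n) := by
  have : (yx : V n → V n) = fun x => T4 n 4 x + fun _ => -2 := funext yx_eq
  rw [this]
  exact (T4 n 4).contDiff.add contDiff_const

lemma xy_sm : ContDiff ℝ ∞ (xy : V n → V n) := by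
  have : (xy : V n → V n) = fun x => T4 n (1 / 4) x + fun _ => 1 / 2 := funext xy_eq
  rw [this]
  exact (T4 n (1 / 4)).contDiff.add contDiff_const

lemma fd_aff {F : Type*} [NormedAddCommGroup F] [NormedSpace ℝ F] {f : V n → F}
    (hf : ContDiff ℝ ∞ f) {g : V n → V n} {c : ℝ} {b : V n} (hg : ∀ x, g x = T4 n c x + b)
    (i : Fin n) (x : V n) : pd i (fun x => f (g x)) x = c • pd i f (g x) := by
  have h1 : HasFDerivAt g (T4 n c) x := by
    have : g = fun x => T4 n c x + b := funext hg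
    rw [this]
    exact (T4 n c).hasFDerivAt.add_const b
  have h2 : HasFDerivAt (fun x => f (g x)) ((fderiv ℝ f (g x)).comp (T4 n c)) x :=
    (dfa hf (g x)).hasFDerivAt.comp x h1
  unfold pd
  rw [h2.fderiv]
  simp [T4]

lemma cl_affF {F : Type*} [NormedAddCommGroup F] [NormedSpace ℝ F] {k : ℕ} {δ D : ℝ} {f : V n → F}
    (hf : ContDiff ℝ ∞ f) (T : V n →L[ℝ] V n)
    (b : V n) (hD : 1 ≤ D) (hT : ‖T‖ ≤ D) (h : Cl k δ f) :
    Cl k (D ^ k * δ) (fun x => f (T x + b)) := by
  intro l hl x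
  have hδ : 0 ≤ δ := (norm_nonneg _).trans (h 0 (Nat.zero_le _) 0)
  have hfb : ContDiff ℝ ∞ (fun y => f (y + b)) := hf.comp (contDiff_id.add contDiff_const)
  have e1 : (fun x => f (T x + b)) = (fun y => f (y + b)) ∘ T := rfl
  rw [e1, T.iteratedFDeriv_comp_right hfb x (by exact_mod_cast le_top)]
  refine (ContinuousMultilinearMap.norm_compContinuousLinearMap_le _ _).trans ?_
  rw [iteratedFDeriv_comp_add_right, Finset.prod_const, Finset.card_univ, Fintype.card_fin]
  calc ‖iteratedFDeriv ℝ l f (T x + b)‖ * ‖T‖ ^ l ≤ δ * D ^ k := by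
        refine mul_le_mul (h l hl _) ?_ (by positivity) hδ
        exact (pow_le_pow_left₀ (norm_nonneg _) hT l).trans (pow_le_pow_right₀ hD hl)
    _ = D ^ k * δ := by ring

lemma cl_yx {F : Type*} [NormedAddCommGroup F] [NormedSpace ℝ F] {k : ℕ} {δ : ℝ} {f : V n → F}
    (hf : ContDiff ℝ ∞ f) (h : Cl k δ f) : Cl k (4 ^ k * δ) (fun x => f (yx x)) := by
  simp only [yx_eq]
  exact cl_affF hf (T4 n 4) _ (by norm_num) (T4_norm 4 (by norm_num)) h

lemma cl_cm {k : ℕ} {a : ℝ} {f : V n → ℂ} (hf : ContDiff ℝ ∞ f) (h : Cl k a f) (c : ℂ) :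
    Cl k (‖c‖ * a) (fun x => c * f x) := by
  intro l hl x
  have h1 : (fun x => c * f x) = fun x => c • f x := rfl
  rw [h1, iteratedFDeriv_const_smul_apply' (hf.of_le (by exact_mod_cast le_top)).contDiffAt,
    norm_smul]
  exact mul_le_mul_of_nonneg_left (h l hl x) (norm_nonneg _)

lemma cl_mulE {k : ℕ} {a b : ℝ} {f g : V n → ℂ} (hf : ContDiff ℝ ∞ f) (hg : ContDiff ℝ ∞ g)
    (h1 : Cl k a f) (h2 : Cl k b g) : Cl k (2 ^ k * (a * b)) (fun x => f x * g x) := by
  have ha : 0 ≤ a := (norm_nonneg _).trans (h1 0 (Nat.zero_le _) 0)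
  have hb : 0 ≤ b := (norm_nonneg _).trans (h2 0 (Nat.zero_le _) 0)
  intro l hl x
  refine (norm_iteratedFDeriv_mul_le (hf.of_le (by exact_mod_cast le_top) : ContDiff ℝ l f)
    (hg.of_le (by exact_mod_cast le_top)) x le_rfl).trans ?_
  calc ∑ i ∈ Finset.range (l + 1), (l.choose i : ℝ) * ‖iteratedFDeriv ℝ i f x‖
        * ‖iteratedFDeriv ℝ (l - i) g x‖
      ≤ ∑ i ∈ Finset.range (l + 1), (l.choose i : ℝ) * (a * b) := by
        refine Finset.sum_le_sum fun i hi => ?_
        rw [Finset.mem_range] at hi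
        have h3 := h1 i (by omega) x
        have h4 := h2 (l - i) (by omega) x
        rw [mul_assoc]
        gcongr
    _ = 2 ^ l * (a * b) := by
        rw [← Finset.sum_mul]
        congr 1
        exact_mod_cast Nat.sum_range_choose l
    _ ≤ 2 ^ k * (a * b) := by
        have : (2 : ℝ) ^ l ≤ 2 ^ k := pow_le_pow_right₀ (by norm_num) hl
        gcongr

lemma cl_sumF {F : Type*} [NormedAddCommGroup F] [NormedSpace ℝ F] {ι : Type*} (t : Finset ι)
    {k : ℕ} {a : ℝ} {f : ι → V n → F} (hf : ∀ i, ContDiff ℝ ∞ (f i)) (h : ∀ i, Cl k a (f i)) :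
    Cl k (t.card * a) (fun x => ∑ i ∈ t, f i x) := by
  classical
  induction t using Finset.induction_on with
  | empty =>
    intro l _ x
    simp only [Finset.sum_empty, Finset.card_empty, Nat.cast_zero, zero_mul]
    have h0 : iteratedFDeriv ℝ l (fun _ : V n => (0 : F)) = 0 := iteratedFDeriv_fun_zero
    rw [h0]
    simp
  | insert i t hi ih =>
    have h1 : (fun x => ∑ j ∈ insert i t, f j x) = fun x => f i x + ∑ j ∈ t, f j x := by
      funext x
      rw [Finset.sum_insert hi]
    rw [h1, Finset.card_insert_of_notMem hi]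
    have h2 := cl_addF (hf i) (ContDiff.sum fun j _ => hf j) (h i) ih
    have h3 : ((t.card + 1 : ℕ) : ℝ) * a = a + t.card * a := by
      push_cast
      ring
    rw [h3]
    exact h2

lemma cl_le {F : Type*} [NormedAddCommGroup F] [NormedSpace ℝ F] {k : ℕ} {a b : ℝ} {f : V n → F}
    (h : Cl k a f) (hab : a ≤ b) : Cl k b f := fun l hl x => (h l hl x).trans hab

/-! ### the cut-off -/

/-- cut-off in the cube -/
def ct (x : V n) : ℝ :=
  ∏ j, (Real.smoothTransition (32 * x j - 1) * Real.smoothTransition (31 - 32 * x j))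

/-- its support -/
def cC (n : ℕ) : Set (V n) := {x | ∀ j, 1 / 32 ≤ x j ∧ x j ≤ 31 / 32}

lemma ct_sm : ContDiff ℝ ∞ (ct : V n → ℝ) := by
  unfold ct
  refine contDiff_prod fun j _ => ?_
  have h1 : ContDiff ℝ ∞ fun x : V n => x j := contDiff_apply ℝ ℝ j
  exact (Real.smoothTransition.contDiff.comp ((contDiff_const.mul h1).sub contDiff_const)).mul
    (Real.smoothTransition.contDiff.comp (contDiff_const.sub (contDiff_const.mul h1)))

lemma ct_one {x : V n} (h : ∀ j, 1 / 16 ≤ x j ∧ x j ≤ 15 / 16) : ct x = 1 := by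
  unfold ct
  refine Finset.prod_eq_one fun j _ => ?_
  rw [Real.smoothTransition.one_of_one_le (by linarith [(h j).1]),
    Real.smoothTransition.one_of_one_le (by linarith [(h j).2]), one_mul]

lemma ct_zero {x : V n} (h : x ∉ cC n) : ct x = 0 := by
  unfold cC at h
  simp only [mem_ofPred_eq, not_forall, not_and_or, not_le] at h
  obtain ⟨j, h⟩ := h
  unfold ct
  refine Finset.prod_eq_zero (Finset.mem_univ j) ?_
  rcases h with h | h
  · rw [Real.smoothTransition.zero_of_nonpos (by linarith), zero_mul]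
  · rw [Real.smoothTransition.zero_of_nonpos (x := 31 - 32 * x j) (by linarith), mul_zero]

lemma cC_cpt : IsCompact (cC n) := by
  have : cC n = Icc (fun _ => 1 / 32) (fun _ => 31 / 32) := by
    ext x
    constructor
    · intro h
      exact ⟨fun j => (h j).1, fun j => (h j).2⟩
    · intro h j
      exact ⟨h.1 j, h.2 j⟩
  rw [this]
  exact isCompact_Icc

lemma cC_cube : cC n ⊆ cube n := fun x hx j => by
  have := hx j
  constructor <;> linarith [this.1, this.2]

lemma core_cC : core n ⊆ cC n := fun x hx j => by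
  have := hx j
  constructor <;> linarith [this.1, this.2]

lemma tsup_cC {f : V n → ℂ} (h : ∀ x ∉ cC n, f x = 0) : tsupport f ⊆ cube n := by
  refine (closure_minimal (fun x hx => ?_) cC_cpt.isClosed).trans cC_cube
  by_contra hx'
  exact hx (h x hx')

lemma ct_bound (k : ℕ) : ∃ B : ℝ, 0 < B ∧ Cl k B (fun x : V n => ((ct x : ℝ) : ℂ)) := by
  have hs : ContDiff ℝ ∞ (fun x : V n => ((ct x : ℝ) : ℂ)) := sm_of ct_sm
  have hc : HasCompactSupport (fun x : V n => ((ct x : ℝ) : ℂ)) := by
    refine HasCompactSupport.intro cC_cpt fun x hx => ?_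
    rw [ct_zero hx, Complex.ofReal_zero]
  have h : ∀ l : ℕ, ∃ C : ℝ, ∀ x, ‖iteratedFDeriv ℝ l (fun x : V n => ((ct x : ℝ) : ℂ)) x‖ ≤ C :=
    fun l => (hs.continuous_iteratedFDeriv (by exact_mod_cast le_top)).bounded_above_of_compact_support
      (hc.iteratedFDeriv l)
  choose C hC using h
  refine ⟨1 + ∑ l ∈ Finset.range (k + 1), |C l|, by positivity, fun l hl x => ?_⟩
  calc ‖iteratedFDeriv ℝ l (fun x : V n => ((ct x : ℝ) : ℂ)) x‖ ≤ C l := hC l x
    _ ≤ |C l| := le_abs_self _
    _ ≤ ∑ l ∈ Finset.range (k + 1), |C l| :=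
      Finset.single_le_sum (f := fun l => |C l|) (fun i _ => abs_nonneg _)
        (Finset.mem_range.mpr (by omega))
    _ ≤ _ := by linarith

end Vale.Agent.P088.PJ.H311
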