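import Vale.Agent.P088.R2.H311.V.Ex

/-!
# P088, two pairs: row V-EX, the solution
-/

open MeasureTheory Set Filter
open scoped ContDiff Matrix Topology

noncomputable section

namespace Vale.Agent.P088.PJ.H311

open Vale.Agent.P088.LR Vale.Agent.P088.LR.U Vale.Agent.P088.LR.H158 Vale.Agent.P088.LR.H27
open Vale.Agent.P088.H159
open Vale.Agent.P088.HY (VV Bs Bn Un DB)

variable {n N : ℕ}

/-- the first order coefficients on the cube -/
def Bx (s : MF n) (β : Fin n → MC n N) (j : Fin n) (x : V n) : Matrix (Fin N) (Fin N) ℂ :=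
  Matrix.of fun a c => -(∑ i, ((pd i (fun z => s (yx z) i j) x : ℝ) : ℂ)) * (if a = c then 1 else 0)
    + 4 * ((ct x : ℝ) * β j (yx x) c a)

lemma sq_ge (y : V n) (j : Fin n) : y j ^ 2 ≤ HY.sq y :=
  Finset.single_le_sum (f := fun j => y j ^ 2) (fun _ _ => sq_nonneg _) (Finset.mem_univ j)

lemma off_core {x : V n} (h : x ∉ core n) : 1 < HY.sq (yx x) := by
  unfold core at h
  simp only [mem_ofPred_eq, not_forall, not_and_or, not_le] at h
  obtain ⟨j, h⟩ := h
  refine lt_of_lt_of_le ?_ (sq_ge (yx x) j)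
  simp only [yx]
  rcases h with h | h <;> nlinarith

lemma pd_off' {F : Type*} [NormedAddCommGroup F] [NormedSpace ℝ F] {f : V n → F} {K : Set (V n)}
    (hK : IsClosed K) {c : F} (h : ∀ x ∉ K, f x = c) (i : Fin n) {x : V n}
    (hx : x ∉ K) : pd i f x = 0 := by
  have h1 : f =ᶠ[𝓝 x] fun _ => c := by
    filter_upwards [hK.isOpen_compl.mem_nhds hx] with y hy
    exact h y hy
  unfold pd
  rw [h1.fderiv_eq]
  simp

lemma sy_sm {s : MF n} (hs : SmM s) (i j : Fin n) : ContDiff ℝ ∞ fun z => s (yx z) i j :=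
  (hs i j).comp yx_sm

lemma cC_closed : IsClosed (cC n) := cC_cpt.isClosed

lemma core_closed : IsClosed (core n) := by
  have : core n = Icc (fun _ => 1 / 4) (fun _ => 3 / 4) := by
    ext x
    constructor
    · intro h
      exact ⟨fun j => (h j).1, fun j => (h j).2⟩
    · intro h j
      exact ⟨h.1 j, h.2 j⟩
  rw [this]
  exact isClosed_Icc

lemma Bx_sm {s : MF n} (hs : SmM s) {β : Fin n → MC n N} (hβ : ∀ i, SmC (β i)) (j : Fin n)
    (a c : Fin N) : ContDiff ℝ ∞ fun x => Bx s β j x a c := by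
  have h1 : ContDiff ℝ ∞ fun x => -(∑ i, ((pd i (fun z => s (yx z) i j) x : ℝ) : ℂ)) *
      (if a = c then 1 else 0) := by
    refine (ContDiff.neg (ContDiff.sum fun i _ => sm_of ?_)).mul contDiff_const
    exact ((sy_sm hs i j).fderiv_right (m := ∞) (by simp)).clm_apply contDiff_const
  exact h1.add (contDiff_const.mul ((sm_of ct_sm).mul ((hβ j c a).comp yx_sm)))

lemma Bx_off {s : MF n} (h1 : ∀ y, 1 < HY.sq y → s y = 1) (β : Fin n → MC n N) (j : Fin n)
    (a c : Fin N) {x : V n} (hx : x ∉ cC n) : Bx s β j x a c = 0 := by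
  have hx' : x ∉ core n := fun h => hx (core_cC h)
  have e1 : ∀ i, pd i (fun z => s (yx z) i j) x = 0 := fun i =>
    pd_off' core_closed (c := (1 : Matrix (Fin n) (Fin n) ℝ) i j)
      (fun z hz => by rw [h1 _ (off_core hz)]) i hx'
  simp [Bx, e1, ct_zero hx]

lemma Bx_cl {s : MF n} (hs : SmM s) {β : Fin n → MC n N} (hβ : ∀ i, SmC (β i)) {k : ℕ} {δ B : ℝ}
    (hcs : ∀ i j, Cl (k + 1) δ (fun x => s x i j - (1 : Matrix (Fin n) (Fin n) ℝ) i j))
    (hcb : ∀ i, ClC (k + 1) δ (β i)) (hδ : 0 ≤ δ)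
    (hct : Cl k B (fun x : V n => ((ct x : ℝ) : ℂ))) (j : Fin n) (a c : Fin N) :
    Cl k ((n * 4 ^ (k + 1) + 4 * (2 ^ k * (B * 4 ^ k))) * δ) fun x => Bx s β j x a c := by
  have f1 : ∀ i, Cl k (4 ^ (k + 1) * δ) (fun x => ((pd i (fun z => s (yx z) i j) x : ℝ) : ℂ)) := by
    intro i
    have e1 : pd i (fun z => s (yx z) i j) = pd i (fun z => s (yx z) i j -
        (1 : Matrix (Fin n) (Fin n) ℝ) i j) := by
      funext x
      unfold pd
      rw [fderiv_sub_const]
    have e2 : ContDiff ℝ ∞ (fun z => s (yx z) i j - (1 : Matrix (Fin n) (Fin n) ℝ) i j) :=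
      (sy_sm hs i j).sub contDiff_const
    have e3 := cl_pdF e2 (cl_yx ((hs i j).sub contDiff_const) (hcs i j)) i
    rw [e1]
    exact cl_ofF ((e2.fderiv_right (m := ∞) (by simp)).clm_apply contDiff_const) e3
  have g1 : ∀ i, ContDiff ℝ ∞ (fun x => ((pd i (fun z => s (yx z) i j) x : ℝ) : ℂ)) := fun i =>
    sm_of (((sy_sm hs i j).fderiv_right (m := ∞) (by simp)).clm_apply contDiff_const)
  have f2 := cl_sumF Finset.univ g1 f1
  have g2 : ContDiff ℝ ∞ (fun x => ∑ i, ((pd i (fun z => s (yx z) i j) x : ℝ) : ℂ)) :=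
    ContDiff.sum fun i _ => g1 i
  have f3 := cl_cm g2 f2 (-(if a = c then 1 else 0))
  have f4 : Cl k (n * 4 ^ (k + 1) * δ) (fun x => -(if a = c then 1 else 0) *
      ∑ i, ((pd i (fun z => s (yx z) i j) x : ℝ) : ℂ)) := by
    refine cl_le f3 ?_
    rw [Finset.card_univ, Fintype.card_fin]
    have h5 : ‖-(if a = c then (1 : ℂ) else 0)‖ ≤ 1 := by
      rw [norm_neg]
      split_ifs <;> simp
    calc _ ≤ 1 * (n * (4 ^ (k + 1) * δ)) := mul_le_mul_of_nonneg_right h5 (by positivity)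
      _ = _ := by ring
  have g5 : ContDiff ℝ ∞ fun x => β j (yx x) c a := (hβ j c a).comp yx_sm
  have f5 : Cl k (4 ^ k * δ) (fun x => β j (yx x) c a) :=
    cl_yx (hβ j c a) (cl_down (hcb j c a) (Nat.le_succ k))
  have f6 := cl_cm ((sm_of ct_sm).mul g5) (cl_mulE (sm_of ct_sm) g5 hct f5) 4
  have f7 := cl_addF (contDiff_const.mul g2) (contDiff_const.mul ((sm_of ct_sm).mul g5)) f4 f6
  have e : (fun x => Bx s β j x a c) = fun x => -(if a = c then 1 else 0) *
      ∑ i, ((pd i (fun z => s (yx z) i j) x : ℝ) : ℂ) + 4 * (((ct x : ℝ) : ℂ) * β j (yx x) c a) := by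
    funext x
    simp only [Bx, Matrix.of_apply]
    ring
  rw [e]
  refine cl_le f7 (le_of_eq ?_)
  simp only [Complex.norm_ofNat]
  ring

lemma dfc {F : Type*} [NormedAddCommGroup F] [NormedSpace ℝ F] {f : V n → F}
    (hf : ContDiff ℝ ∞ f) (i : Fin n) : ContDiff ℝ ∞ (pd i f) :=
  (hf.fderiv_right (m := ∞) (by simp)).clm_apply contDiff_const

lemma pd_mulRC {f : V n → ℝ} {g : V n → ℂ} (hf : ContDiff ℝ ∞ f) (hg : ContDiff ℝ ∞ g) (i : Fin n)
    (x : V n) : pd i (fun y => (f y : ℂ) * g y) x = ((pd i f x : ℝ) : ℂ) * g x + f x * pd i g x := by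
  have h1 := (sm_of hf).differentiable (by simp) x
  have h2 := hg.differentiable (by simp) x
  have h3 : pd i (fun y => (f y : ℂ)) x = ((pd i f x : ℝ) : ℂ) := LR.H27.pd_ofReal hf i x
  unfold pd at *
  rw [fderiv_fun_mul h1 h2]
  simp only [FunLike.coe_add, Pi.add_apply, FunLike.coe_smul, Pi.smul_apply, smul_eq_mul]
  rw [h3]
  ring

lemma pd_sumC {ι : Type*} (t : Finset ι) {f : ι → V n → ℂ} (hf : ∀ k ∈ t, ContDiff ℝ ∞ (f k))
    (i : Fin n) (x : V n) : pd i (fun z => ∑ k ∈ t, f k z) x = ∑ k ∈ t, pd i (f k) x := by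
  unfold pd
  rw [fderiv_fun_sum fun k hk => (hf k hk).differentiable (by simp) x]
  simp

lemma pd_smulR {f : V n → ℂ} (hf : ContDiff ℝ ∞ f) (c : ℝ) (i : Fin n) (x : V n) :
    pd i (fun z => c • f z) x = c • pd i f x := by
  unfold pd
  rw [fderiv_fun_const_smul (hf.differentiable (by simp) x)]
  rfl

/-- the operator on the cube in non divergence form -/
lemma opS_eq {s : MF n} (hs : SmM s) (β : Fin n → MC n N) {u : Fin N → V n → ℂ}
    (hu : ∀ a, ContDiff ℝ ∞ (u a)) (a : Fin N) (x : V n) :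
    opS (fun x => s (yx x)) (fun _ _ => 0) (Bx s β) (fun _ => 0) u a x =
      (∑ i, ∑ j, (s (yx x) i j : ℂ) * pd i (pd j (u a)) x) +
        4 * ∑ j, ∑ c, (ct x : ℂ) * β j (yx x) c a * pd j (u c) x := by
  have e1 : ∀ i, pd i (fun z => ∑ j, (s (yx z) i j : ℂ) * pd j (u a) z + ∑ c : Fin N,
      (0 : Matrix (Fin N) (Fin N) ℂ) a c * u c z) x =
      ∑ j, (((pd i (fun z => s (yx z) i j) x : ℝ) : ℂ) * pd j (u a) x +
        (s (yx x) i j : ℂ) * pd i (pd j (u a)) x) := by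
    intro i
    have e0 : (fun z => ∑ j, (s (yx z) i j : ℂ) * pd j (u a) z + ∑ c : Fin N,
        (0 : Matrix (Fin N) (Fin N) ℂ) a c * u c z) =
        fun z => ∑ j, (s (yx z) i j : ℂ) * pd j (u a) z := by
      funext z
      simp
    rw [e0]
    have e2 : pd i (fun z => ∑ j, (s (yx z) i j : ℂ) * pd j (u a) z) x =
        ∑ j, pd i (fun z => (s (yx z) i j : ℂ) * pd j (u a) z) x :=
      pd_sumC Finset.univ (f := fun j z => (s (yx z) i j : ℂ) * pd j (u a) z)
        (fun j _ => (sm_of (sy_sm hs i j)).mul (dfc (hu a) j)) i x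
    rw [e2]
    exact Finset.sum_congr rfl fun j _ => pd_mulRC (sy_sm hs i j) (dfc (hu a) j) i x
  unfold opS
  rw [Finset.sum_congr rfl fun i _ => e1 i]
  have e3 : ∑ j, ∑ c, Bx s β j x a c * pd j (u c) x =
      -(∑ i, ∑ j, ((pd i (fun z => s (yx z) i j) x : ℝ) : ℂ) * pd j (u a) x) +
        4 * ∑ j, ∑ c, (ct x : ℂ) * β j (yx x) c a * pd j (u c) x := by
    rw [Finset.sum_comm (f := fun i j => ((pd i (fun z => s (yx z) i j) x : ℝ) : ℂ) *
      pd j (u a) x), Finset.mul_sum, ← Finset.sum_neg_distrib, ← Finset.sum_add_distrib]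
    refine Finset.sum_congr rfl fun j _ => ?_
    have e4 : ∀ c, Bx s β j x a c * pd j (u c) x =
        (if a = c then -(∑ i, ((pd i (fun z => s (yx z) i j) x : ℝ) : ℂ)) * pd j (u c) x else 0) +
          4 * ((ct x : ℂ) * β j (yx x) c a * pd j (u c) x) := by
      intro c
      simp only [Bx, Matrix.of_apply]
      split_ifs <;> ring
    rw [Finset.sum_congr rfl fun c _ => e4 c, Finset.sum_add_distrib, Finset.sum_ite_eq,
      if_pos (Finset.mem_univ a), ← Finset.mul_sum, neg_mul, Finset.sum_mul]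
  rw [e3]
  simp only [Finset.sum_add_distrib, Matrix.zero_apply, zero_mul, Finset.sum_const_zero, add_zero]
  ring

lemma RD_zero : RD (fun _ : Ix n => (0 : ℂ)) := fun m => by simpa using summable_zero

lemma nm_zero' (m : ℕ) : nm m (fun _ : Ix n => (0 : ℂ)) = 0 := by simp [nm]

lemma Es_zero' (θ x : V n) : Es θ (fun _ : Ix n => (0 : ℂ)) x = 0 := by simp [Es]

/-- **row V-EX** -/
theorem rowEX : RowEX := by
  intro n N hn
  obtain ⟨C, hC, hA3⟩ := H776.rowA3 n 0
  obtain ⟨B, hB, hct⟩ := ct_bound (n := n) (n + 1)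
  set δ' : ℝ := 1 / (14 * (n + 3) * ((N ^ 2 + 1) * (n + 1) ^ 2)) with hδ'
  have hδ'0 : 0 < δ' := by positivity
  set D : ℝ := n * 4 ^ (n + 2) + 4 * (2 ^ (n + 1) * (B * 4 ^ (n + 1))) + 4 ^ (n + 2) with hD
  have hD0 : 0 < D := by positivity
  refine ⟨n + 2, δ' / (C * D), by positivity, ?_⟩
  intro s β hc ρ hρ hρ0
  set δ₀ := δ' / (C * D) with hδ₀
  have hδ₀0 : 0 < δ₀ := by positivity
  have hCD : C * (D * δ₀) = δ' := by
    rw [hδ₀]
    field_simp
  have i₀ : Fin n := ⟨0, by omega⟩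
  have hθ : Sh (CF.th0 i₀) := ⟨i₀, Or.inl rfl⟩
  set θ := CF.th0 i₀ with hθd
  have hsm := hc.sm
  -- representations
  have hz : ∀ j : Fin n, |(0 : V n) j| ≤ 1 := fun j => by simp
  have ent_sm : ∀ i j, ContDiff ℝ ∞ (ent (fun x => s (yx x)) i j) := fun i j => by
    unfold ent
    exact sm_of ((sy_sm hsm i j).sub contDiff_const)
  have ent0 : ∀ i j, ∀ x ∉ cC n, ent (fun x => s (yx x)) i j x = 0 := fun i j x hx => by
    show ((s (yx x) i j - (1 : Matrix (Fin n) (Fin n) ℝ) i j : ℝ) : ℂ) = 0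
    rw [hc.one _ (off_core fun h => hx (core_cC h))]
    simp
  have ent_cl : ∀ i j, Cl (n + 1) (D * δ₀) (ent (fun x => s (yx x)) i j) := fun i j => by
    have h1 := cl_ofF ((sy_sm hsm i j).sub contDiff_const)
      (cl_yx ((hsm i j).sub contDiff_const) (hc.cl i j))
    refine cl_le (cl_down h1 (by omega)) ?_
    have : (4 : ℝ) ^ (n + 2) ≤ D := by
      rw [hD]
      have : (0 : ℝ) ≤ n * 4 ^ (n + 2) + 4 * (2 ^ (n + 1) * (B * 4 ^ (n + 1))) := by positivity
      linarith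
    exact mul_le_mul_of_nonneg_right this hδ₀0.le
  have R1 := fun i j => hA3 (ent (fun x => s (yx x)) i j) (ent_sm i j) (tsup_cC (ent0 i j)) 0 hz
  have B_cl : ∀ j a c, Cl (n + 1) (D * δ₀) (fun x => Bx s β j x a c) := fun j a c => by
    refine cl_le (Bx_cl hsm hc.sb hc.cl hc.cb hδ₀0.le hct j a c) ?_
    refine mul_le_mul_of_nonneg_right ?_ hδ₀0.le
    rw [hD]
    have : (0 : ℝ) ≤ 4 ^ (n + 2) := by positivity
    linarith
  have R2 := fun j a c => hA3 (fun x => Bx s β j x a c) (Bx_sm hsm hc.sb j a c)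
    (tsup_cC fun x hx => Bx_off hc.one β j a c hx) 0 hz
  have ρ_sm : ∀ a c, ContDiff ℝ ∞ fun x => 16 * ρ (yx x) a c := fun a c =>
    contDiff_const.mul ((hρ a c).comp yx_sm)
  have ρ0' : ∀ a c, ∀ x ∉ cC n, 16 * ρ (yx x) a c = 0 := fun a c x hx => by
    have h1 := off_core fun h => hx (core_cC h)
    rw [hρ0 (yx x) (fun h => by
      have h2 : HY.sq (yx x) ≤ 1 / 4 := h
      linarith)]
    simp
  have R3 := fun a c => rep_cube H776.rowA3 (ρ_sm a c) (tsup_cC (ρ0' a c)) hθ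
  -- the solution
  have sol : ∀ a : Fin N, ∃ u : Fin N → Ix n → ℂ, (∀ c, RD (u c)) ∧
      ∀ c, ∀ x ∈ cube n, opS (fun x => s (yx x)) (fun _ _ => 0) (Bx s β) (fun _ => 0)
        (fun c => Es θ (u c)) c x = 16 * ρ (yx x) a c := by
    intro a
    obtain ⟨u, hu, he, -⟩ := solveS (N := N) H501.rowA1 H501.rowA2 H102.neu 0 hθ
      (s := fun x => s (yx x)) (B := fun _ _ => 0) (B' := Bx s β) (Q := fun _ => 0)
      (ψ := fun c x => 16 * ρ (yx x) a c)
      (h := fun i j => cf 0 (ent (fun x => s (yx x)) i j)) (fun i j => (R1 i j).1)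
      (b := fun _ _ _ _ => 0) (b' := fun j a c => cf 0 (fun x => Bx s β j x a c))
      (fun _ _ _ => RD_zero) (fun j a c => (R2 j a c).1)
      (q := fun _ _ _ => 0) (fun _ _ => RD_zero)
      (f := fun c => cf θ (fun x => 16 * ρ (yx x) a c)) (fun c => (R3 a c).1)
      (fun i j x hx => (R1 i j).2.1 x hx)
      (fun _ _ _ x _ => by rw [Es_zero']; rfl)
      (fun j a c x hx => (R2 j a c).2.1 x hx)
      (fun _ _ x _ => by rw [Es_zero']; rfl)
      (fun c x hx => (R3 a c).2 x hx) (δ := δ')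
      (by
        rw [hδ']
        have h1 : (0 : ℝ) < (N : ℝ) ^ 2 + 1 := by positivity
        have h2 : 7 * ((n : ℝ) + 3) * (N ^ 2 * ((n + 1) ^ 2 *
            (1 / (14 * (n + 3) * ((N ^ 2 + 1) * (n + 1) ^ 2))))) = (N ^ 2 / (N ^ 2 + 1)) / 2 := by
          field_simp
          ring
        rw [h2]
        have h3 : (N : ℝ) ^ 2 / (N ^ 2 + 1) ≤ 1 := by
          rw [div_le_one h1]
          linarith
        linarith)
      (fun i j => by
        have := (R1 i j).2.2 (D * δ₀) (by simpa using ent_cl i j)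
        rwa [hCD] at this)
      (fun _ _ _ => by rw [nm_zero']; exact hδ'0.le)
      (fun j a c => by
        have := (R2 j a c).2.2 (D * δ₀) (by simpa using B_cl j a c)
        rwa [hCD] at this)
      (fun _ _ => by rw [nm_zero']; exact hδ'0.le)
    exact ⟨u, hu, fun c x hx => he c x hx⟩
  choose u hu he using sol
  have us : ∀ a c, ContDiff ℝ ∞ (Es θ (u a c)) := fun a c => smooth_EsS H501.rowA1 θ (hu a c)
  have ux : ∀ a c, ContDiff ℝ ∞ fun y => Es θ (u a c) (xy y) := fun a c => (us a c).comp xy_sm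
  refine ⟨fun y => Matrix.of fun a c => Es θ (u a c) (xy y), fun a c => ux a c, fun y hy => ?_⟩
  have hyj : ∀ j, |y j| < 7 / 4 := fun j => by
    have h1 : HY.sq y < (7 / 4) ^ 2 := hy
    exact abs_lt_of_sq_lt_sq ((sq_ge y j).trans_lt h1) (by norm_num)
  have hcube : xy y ∈ cube n := fun j => by
    have := abs_lt.1 (hyj j)
    simp only [xy]
    constructor <;> linarith [this.1, this.2]
  have hct1 : ct (xy y) = 1 := ct_one fun j => by
    have := abs_lt.1 (hyj j)
    simp only [xy]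
    constructor <;> linarith [this.1, this.2]
  have d1 : ∀ a c i (z : V n), pd i (fun y => Es θ (u a c) (xy y)) z =
      (1 / 4 : ℝ) • pd i (Es θ (u a c)) (xy z) := fun a c i z => fd_aff (us a c) xy_eq i z
  have d2 : ∀ a c i j (z : V n), pd i (pd j fun y => Es θ (u a c) (xy y)) z =
      (1 / 16 : ℝ) • pd i (pd j (Es θ (u a c))) (xy z) := fun a c i j z => by
    have e1 : (pd j fun y => Es θ (u a c) (xy y)) = fun z =>
        (1 / 4 : ℝ) • pd j (Es θ (u a c)) (xy z) := funext fun z => d1 a c j z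
    rw [e1]
    have e2 : pd i (fun z => (1 / 4 : ℝ) • pd j (Es θ (u a c)) (xy z)) z =
        (1 / 4 : ℝ) • pd i (fun z => pd j (Es θ (u a c)) (xy z)) z :=
      pd_smulR (f := fun z => pd j (Es θ (u a c)) (xy z)) ((dfc (us a c) j).comp xy_sm) _ i z
    rw [e2, fd_aff (dfc (us a c) j) xy_eq i z, smul_smul]
    norm_num
  ext a c
  have h1 := he a c (xy y) hcube
  rw [opS_eq hsm β (fun c => us a c), yx_xy, hct1] at h1
  unfold Rv
  simp only [Matrix.add_apply, Matrix.sum_apply, Matrix.smul_apply, Matrix.mul_apply, pdm,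
    Matrix.of_apply, smul_eq_mul]
  have e3 : ∀ i j, pd i (fun y => pd j (fun y => Es θ (u a c) (xy y)) y) y =
      (1 / 16 : ℝ) • pd i (pd j (Es θ (u a c))) (xy y) := fun i j => d2 a c i j y
  simp only [e3]
  simp only [d1, Complex.real_smul]
  push_cast at h1 ⊢
  have e4 : ∑ i, ∑ j, (s y i j : ℂ) * (1 / 16 * pd i (pd j (Es θ (u a c))) (xy y)) =
      (1 / 16) * ∑ i, ∑ j, (s y i j : ℂ) * pd i (pd j (Es θ (u a c))) (xy y) := by
    rw [Finset.mul_sum]
    refine Finset.sum_congr rfl fun i _ => ?_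
    rw [Finset.mul_sum]
    exact Finset.sum_congr rfl fun j _ => by ring
  have e5 : ∑ i, ∑ x, 1 / 4 * pd i (Es θ (u a x)) (xy y) * β i y x c =
      (1 / 4) * ∑ j, ∑ x, 1 * β j y x c * pd j (Es θ (u a x)) (xy y) := by
    rw [Finset.mul_sum]
    refine Finset.sum_congr rfl fun i _ => ?_
    rw [Finset.mul_sum]
    exact Finset.sum_congr rfl fun j _ => by ring
  rw [e4, e5]
  linear_combination (1 / 16) * h1

end Vale.Agent.P088.PJ.H311
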